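import Mathlib
import Vale.Agent.Lib.H16.ITD.Defs
import Vale.Agent.Lib.H16.ITD.Cube

/-!
# The Auslander-Reiten conjecture for Igusa-Todorov algebras

`R` is an Artin algebra with Jacobson radical `J`.  We prove the Auslander-Reiten conjecture for
modules whose syzygies have two-term presentations in `add V`, for all Igusa-Todorov algebras
(with a uniform finite range of degrees), for algebras with two ideals `I`, `L` such that
`I L J = 0` and `R / I`, `R / L` have finite representation type, and, with an explicit range of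
degrees, for algebras with `J ^ 3 = 0`.
-/

namespace Vale.Agent.Results.P195.IgusaTodorov

open CategoryTheory Abelian Vale.Agent.Lib.H16.ITD

universe u v

theorem result (K : Type v) [CommRing K] [IsArtinianRing K]
    (R : Type u) [Ring R] [Algebra K R] [Module.Finite K R] :
    -- (1) one module
    (∀ M V : ModuleCat.{u} R, Module.Finite R M → Module.Finite R V → AR R M →
      (∀ m : ℕ, ∃ n > m, ∃ Y : ModuleCat.{u} R, IsSyzygy R M n Y ∧ HasPres R V Y) →
      Module.Projective R M) ∧
    -- (2) Igusa-Todorov algebras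
    (IgusaTodorov R →
      ∃ N : ℕ, ∀ M : ModuleCat.{u} R, Module.Finite R M → ARUpTo R N M →
        Module.Projective R M) ∧
    -- (3) two ideals
    (∀ I L : Ideal R,
      (∀ a ∈ I, ∀ b ∈ L, ∀ c ∈ Ring.jacobson R, a * b * c = 0) →
      FinRepQuot R I → FinRepQuot R L →
      ∃ N : ℕ, ∀ M : ModuleCat.{u} R, Module.Finite R M → ARUpTo R N M →
        Module.Projective R M) ∧
    -- (4) radical cube zero
    ((∀ a ∈ Ring.jacobson R, ∀ b ∈ Ring.jacobson R, ∀ c ∈ Ring.jacobson R, a * b * c = 0) →
      ∀ (n : ℕ) (S : Fin n → ModuleCat.{u} R), (∀ a, IsSimpleModule R (S a)) →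
      (∀ T : ModuleCat.{u} R, IsSimpleModule R T → ∃ a, Nonempty (T ≃ₗ[R] S a)) →
      ∀ M : ModuleCat.{u} R, Module.Finite R M →
      (∀ i : ℕ, 1 ≤ i → i ≤ 2 * n + 1 → Subsingleton (Ext M M i)) →
      (∀ i : ℕ, 1 ≤ i → i ≤ 2 * n + 2 → Subsingleton (Ext M (ModuleCat.of R R) i)) →
      Module.Projective R M) := by
  refine ⟨?_, ?_, ?_, ?_⟩
  · intro M V hM hV hAR h
    exact module_version K M V hM hV hAR h
  · intro h
    exact igusaTodorov_version K h
  · intro I L h hI hL
    exact ideals_version K I L h hI hL
  · intro hJ n S hS hall M hM h1 h2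
    refine cube K hJ n S (fun a => ?_) hall M hM h1 h2
    have := hS a
    exact inferInstance

end Vale.Agent.Results.P195.IgusaTodorov
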