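import Mathlib
import Vale.Agent.Lib.H16.IT.Pres

/-!
# The Auslander-Reiten conjecture for Artin algebras with radical cube zero

Let `R` be an Artin algebra whose Jacobson radical `J` satisfies `J^3 = 0`.  Every finitely
generated `R`-module `M` with `Ext^i(M, M) = 0 = Ext^i(M, R)` for all `i ≥ 1` is projective.
-/

namespace Vale.Agent.Results.P195.RadicalCubeZero

open CategoryTheory Abelian

universe u v

/-- The Auslander-Reiten conjecture holds for Artin algebras with radical cube zero. -/
theorem result {K : Type v} [CommRing K] [IsArtinianRing K]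
    {R : Type u} [Ring R] [Algebra K R] [Module.Finite K R]
    (hJ : ∀ a ∈ Ring.jacobson R, ∀ b ∈ Ring.jacobson R, ∀ c ∈ Ring.jacobson R, a * b * c = 0)
    {M : Type u} [AddCommGroup M] [Module R M] [Module.Finite R M]
    (hMM : ∀ i : ℕ, 1 ≤ i → Subsingleton (Ext (ModuleCat.of R M) (ModuleCat.of R M) i))
    (hMR : ∀ i : ℕ, 1 ≤ i → Subsingleton (Ext (ModuleCat.of R M) (ModuleCat.of R R) i)) :
    Module.Projective R M := by
  have hRa : IsArtinianRing R := isArtinian_of_tower K (inferInstance : IsArtinian K R)
  exact Lib.H16.IT.main_ideals K (Ring.jacobson R) (Ring.jacobson R) hJ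
    Lib.H16.IT.finTypeMod_jacobson Lib.H16.IT.finTypeMod_jacobson (ModuleCat.of R M)
    (inferInstance : Module.Finite R M) hMM hMR

end Vale.Agent.Results.P195.RadicalCubeZero
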